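import Mathlib

namespace Vale.Agent.Results.P196.A_BuiltFromLEF

/-- `G` is locally embeddable into finite groups (LEF): every finite subset `E` of `G` admits a map
into a finite group that is injective on `E` and preserves every product `g * h` with
`g, h, g * h ∈ E`. -/
def IsLEF (G : Type) [Group G] : Prop :=
  ∀ E : Finset G, ∃ (F : Type) (_ : Group F) (_ : Finite F) (f : G → F),
    Set.InjOn f (E : Set G) ∧ ∀ g ∈ E, ∀ h ∈ E, g * h ∈ E → f (g * h) = f g * f h

/-- The smallest class of groups that contains all LEF groups and all commutative groups and is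
closed under group extensions, directed unions of subgroups and isomorphism. -/
inductive Built : (G : Type) → Group G → Prop
  | lef (G : Type) [inst : Group G] : IsLEF G → Built G inst
  | comm (G : Type) [inst : Group G] : (∀ a b : G, a * b = b * a) → Built G inst
  | ext (G : Type) [inst : Group G] (N : Subgroup G) [N.Normal] :
      Built N inferInstance → Built (G ⧸ N) inferInstance → Built G inst
  | dirUnion (G : Type) [inst : Group G] (ι : Type) [Nonempty ι] (H : ι → Subgroup G) :
      Directed (· ≤ ·) H → (∀ g : G, ∃ i, g ∈ H i) → (∀ i, Built (H i) inferInstance) →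
      Built G inst
  | iso (G G' : Type) [inst : Group G] [inst' : Group G'] :
      Built G inst → (G ≃* G') → Built G' inst'

theorem transfer {G H : Type} [Group G] [Group H] (e : G ≃* H)
    (hG : Group.IsFinitelyPresented G → IsSimpleGroup G → Finite G) :
    Group.IsFinitelyPresented H → IsSimpleGroup H → Finite H := by
  intro hfp hs
  have hfpG : Group.IsFinitelyPresented G := Group.IsFinitelyPresented.equiv e.symm
  have hnH : Nontrivial H := hs.toNontrivial
  have hnG : Nontrivial G := e.toEquiv.nontrivial
  have hsG : IsSimpleGroup G :=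
    IsSimpleGroup.isSimpleGroup_of_surjective e.symm.toMonoidHom e.symm.surjective
  have hfin := hG hfpG hsG
  exact Finite.of_equiv G e.toEquiv

theorem comm_case (G : Type) [Group G] (hc : ∀ a b : G, a * b = b * a)
    (hs : IsSimpleGroup G) : Finite G := by
  obtain ⟨g, hg⟩ := exists_ne (1 : G)
  have hnormal : ∀ K : Subgroup G, K.Normal := fun K =>
    ⟨fun n hn x => by rw [hc x n, mul_inv_cancel_right]; exact hn⟩
  have htop : Subgroup.zpowers g = ⊤ := by
    rcases hs.eq_bot_or_eq_top_of_normal (Subgroup.zpowers g) (hnormal _) with h | h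
    · exfalso
      apply hg
      have hmem : g ∈ Subgroup.zpowers g := Subgroup.mem_zpowers g
      rw [h] at hmem
      exact Subgroup.mem_bot.mp hmem
    · exact h
  have hfo : IsOfFinOrder g := by
    rcases hs.eq_bot_or_eq_top_of_normal (Subgroup.zpowers (g * g)) (hnormal _) with h | h
    · have hmem : g * g ∈ Subgroup.zpowers (g * g) := Subgroup.mem_zpowers _
      rw [h] at hmem
      have h2 : g ^ 2 = 1 := by rw [pow_two]; exact Subgroup.mem_bot.mp hmem
      exact isOfFinOrder_iff_pow_eq_one.mpr ⟨2, by norm_num, h2⟩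
    · have hmem : g ∈ Subgroup.zpowers (g * g) := h ▸ Subgroup.mem_top g
      obtain ⟨k, hk⟩ := Subgroup.mem_zpowers_iff.mp hmem
      rw [isOfFinOrder_iff_zpow_eq_one]
      refine ⟨2 * k - 1, by omega, ?_⟩
      have e1 : (g * g) ^ k = g ^ (2 * k) := by
        rw [← pow_two, ← zpow_natCast, ← zpow_mul]
        norm_num
      rw [zpow_sub, zpow_one, ← e1, hk, mul_inv_cancel]
  have hfin : (Subgroup.zpowers g : Set G).Finite := hfo.finite_zpowers
  have huniv : (Set.univ : Set G).Finite := by
    rw [htop] at hfin
    simpa using hfin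
  exact Set.finite_univ_iff.mp huniv

theorem dir_case (G : Type) [Group G] (ι : Type) [Nonempty ι] (H : ι → Subgroup G)
    (hd : Directed (· ≤ ·) H) (hcov : ∀ g : G, ∃ i, g ∈ H i)
    (hfp : Group.IsFinitelyPresented G) : ∃ k, H k = ⊤ := by
  classical
  obtain ⟨n, φ, hφ, -⟩ := hfp.out
  choose j hj using fun i : Fin n => hcov (φ (FreeGroup.of i))
  obtain ⟨k, hk⟩ := hd.finset_le (Finset.univ.image j)
  refine ⟨k, ?_⟩
  rw [eq_top_iff]
  have hrange : φ.range = ⊤ := MonoidHom.range_eq_top.mpr hφ
  rw [← hrange, MonoidHom.range_eq_map, ← FreeGroup.closure_range_of, MonoidHom.map_closure,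
    Subgroup.closure_le]
  rintro _ ⟨_, ⟨i, rfl⟩, rfl⟩
  exact hk (j i) (Finset.mem_image_of_mem _ (Finset.mem_univ _)) (hj i)

theorem lef_case (G : Type) [Group G] (hL : IsLEF G) (hfp : Group.IsFinitelyPresented G)
    (hs : IsSimpleGroup G) : Finite G := by
  classical
  obtain ⟨n, φ, hφ, S, hSfin, hS⟩ := hfp.out
  obtain ⟨g, hg⟩ := exists_ne (1 : G)
  obtain ⟨v, rfl⟩ := hφ g
  let a : Fin n → G := fun i => φ (FreeGroup.of i)
  let valG : List (Fin n × Bool) → G :=
    fun L => (L.map fun x => cond x.2 (a x.1) (a x.1)⁻¹).prod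
  have hφmk : ∀ L, φ (FreeGroup.mk L) = valG L := by
    intro L
    have hlift : φ = FreeGroup.lift a := by
      apply FreeGroup.ext_hom
      intro i
      simp [a]
    rw [hlift]
    exact FreeGroup.lift_mk
  let W : Finset (List (Fin n × Bool)) :=
    insert v.toWord (hSfin.toFinset.image FreeGroup.toWord)
  let E : Finset G := insert 1 ((Finset.univ.image a) ∪ (Finset.univ.image fun i => (a i)⁻¹) ∪
      (W.biUnion fun w => (w.inits.toFinset).image valG))
  obtain ⟨F, instF, finF, f, hinj, hmul⟩ := hL E
  have h1E : (1 : G) ∈ E := Finset.mem_insert_self _ _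
  have haE : ∀ i, a i ∈ E := by
    intro i
    apply Finset.mem_insert_of_mem
    apply Finset.mem_union_left
    apply Finset.mem_union_left
    exact Finset.mem_image_of_mem _ (Finset.mem_univ _)
  have haiE : ∀ i, (a i)⁻¹ ∈ E := by
    intro i
    apply Finset.mem_insert_of_mem
    apply Finset.mem_union_left
    apply Finset.mem_union_right
    exact Finset.mem_image.mpr ⟨i, Finset.mem_univ _, rfl⟩
  have hpre : ∀ w ∈ W, ∀ P, P <+: w → valG P ∈ E := by
    intro w hw P hP
    apply Finset.mem_insert_of_mem
    apply Finset.mem_union_right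
    refine Finset.mem_biUnion.mpr ⟨w, hw, ?_⟩
    exact Finset.mem_image_of_mem _ (List.mem_toFinset.mpr ((List.mem_inits P w).mpr hP))
  have hf1 : f 1 = 1 := by
    have h := hmul 1 h1E 1 h1E (by rw [mul_one]; exact h1E)
    rw [mul_one] at h
    have h' : f 1 * 1 = f 1 * f 1 := by rw [mul_one]; exact h
    exact (mul_left_cancel h').symm
  let b : Fin n → F := fun i => f (a i)
  let valF : List (Fin n × Bool) → F :=
    fun L => (L.map fun x => cond x.2 (b x.1) (b x.1)⁻¹).prod
  have hinv : ∀ i, f ((a i)⁻¹) = (b i)⁻¹ := by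
    intro i
    have h := hmul (a i)⁻¹ (haiE i) (a i) (haE i) (by rw [inv_mul_cancel]; exact h1E)
    rw [inv_mul_cancel, hf1] at h
    exact eq_inv_of_mul_eq_one_left h.symm
  have hletter : ∀ x : Fin n × Bool,
      f (cond x.2 (a x.1) (a x.1)⁻¹) = cond x.2 (b x.1) (b x.1)⁻¹ := by
    rintro ⟨i, _ | _⟩
    · exact hinv i
    · rfl
  have hletterE : ∀ x : Fin n × Bool, cond x.2 (a x.1) (a x.1)⁻¹ ∈ E := by
    rintro ⟨i, _ | _⟩
    · exact haiE i
    · exact haE i
  have key : ∀ L : List (Fin n × Bool), (∀ P, P <+: L → valG P ∈ E) → f (valG L) = valF L := by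
    intro L
    induction L using List.reverseRecOn with
    | nil =>
      intro _
      simp only [valG, valF, List.map_nil, List.prod_nil]
      exact hf1
    | append_singleton P x ih =>
      intro hP
      have hPE : valG P ∈ E := hP P (List.prefix_append P [x])
      have hLE : valG (P ++ [x]) ∈ E := hP _ (List.prefix_refl _)
      have e1 : valG (P ++ [x]) = valG P * cond x.2 (a x.1) (a x.1)⁻¹ := by
        simp only [valG, List.map_append, List.map_cons, List.map_nil, List.prod_append,
          List.prod_cons, List.prod_nil, mul_one]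
      have e2 : valF (P ++ [x]) = valF P * cond x.2 (b x.1) (b x.1)⁻¹ := by
        simp only [valF, List.map_append, List.map_cons, List.map_nil, List.prod_append,
          List.prod_cons, List.prod_nil, mul_one]
      rw [e1] at hLE
      rw [e1, e2, hmul _ hPE _ (hletterE x) hLE,
        ih (fun Q hQ => hP Q (hQ.trans (List.prefix_append P [x]))), hletter]
  let θ : FreeGroup (Fin n) →* F := FreeGroup.lift b
  have hθmk : ∀ L, θ (FreeGroup.mk L) = valF L := fun L => FreeGroup.lift_mk
  have hθ : ∀ w ∈ W, θ (FreeGroup.mk w) = f (φ (FreeGroup.mk w)) := by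
    intro w hw
    rw [hθmk, hφmk, key w (hpre w hw)]
  have hker : φ.ker ≤ θ.ker := by
    rw [← hS]
    apply Subgroup.normalClosure_le_normal
    intro s hs'
    have hsW : s.toWord ∈ W :=
      Finset.mem_insert_of_mem (Finset.mem_image_of_mem _ (hSfin.mem_toFinset.mpr hs'))
    have h := hθ _ hsW
    rw [FreeGroup.mk_toWord] at h
    have hφs : φ s = 1 := by
      have hmem : s ∈ φ.ker := hS ▸ Subgroup.subset_normalClosure hs'
      exact MonoidHom.mem_ker.mp hmem
    rw [hφs, hf1] at h
    exact MonoidHom.mem_ker.mpr h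
  let ψ : G →* F := φ.liftOfSurjective hφ ⟨θ, hker⟩
  have hψ : ∀ x, ψ (φ x) = θ x := fun x =>
    MonoidHom.liftOfRightInverse_comp_apply _ _ _ ⟨θ, hker⟩ x
  have hvE : φ v ∈ E := by
    have h := hpre v.toWord (Finset.mem_insert_self _ _) v.toWord (List.prefix_refl _)
    rwa [← hφmk, FreeGroup.mk_toWord] at h
  have hψv : ψ (φ v) ≠ 1 := by
    rw [hψ]
    have h := hθ v.toWord (Finset.mem_insert_self _ _)
    rw [FreeGroup.mk_toWord] at h
    rw [h]
    intro h'
    exact hg (hinj hvE h1E (h'.trans hf1.symm))
  have hkerψ : ψ.ker = ⊥ := by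
    rcases hs.eq_bot_or_eq_top_of_normal ψ.ker inferInstance with h | h
    · exact h
    · exfalso
      apply hψv
      have hmem : φ v ∈ ψ.ker := h ▸ Subgroup.mem_top _
      exact MonoidHom.mem_ker.mp hmem
  have hinjψ : Function.Injective ψ := (MonoidHom.ker_eq_bot_iff ψ).mp hkerψ
  exact Finite.of_injective ψ hinjψ

theorem main : ∀ (G : Type) (inst : Group G), Built G inst →
    Group.IsFinitelyPresented G → IsSimpleGroup G → Finite G := by
  intro G inst hB
  induction hB with
  | lef G hL => exact fun hfp hs => lef_case G hL hfp hs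
  | comm G hc => exact fun _ hs => comm_case G hc hs
  | ext G N hN hQ ihN ihQ =>
    intro hfp hs
    rcases hs.eq_bot_or_eq_top_of_normal N inferInstance with h | h
    · -- N = ⊥ : G ≃* G ⧸ N
      have hinj : Function.Injective (QuotientGroup.mk' N) := by
        rw [← MonoidHom.ker_eq_bot_iff, QuotientGroup.ker_mk', h]
      let e : G ≃* G ⧸ N :=
        MulEquiv.ofBijective (QuotientGroup.mk' N) ⟨hinj, QuotientGroup.mk'_surjective N⟩
      exact transfer e.symm ihQ hfp hs
    · -- N = ⊤ : N ≃* G
      let e : N ≃* G := (MulEquiv.subgroupCongr h).trans Subgroup.topEquiv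
      exact transfer e ihN hfp hs
  | dirUnion G ι H hd hcov hH ih =>
    intro hfp hs
    obtain ⟨k, hk⟩ := dir_case G ι H hd hcov hfp
    let e : H k ≃* G := (MulEquiv.subgroupCongr hk).trans Subgroup.topEquiv
    exact transfer e (ih k) hfp hs
  | iso G G' hG e ih => exact transfer e ih

theorem finite_isLEF (G : Type) [Group G] [Finite G] : IsLEF G :=
  fun _ => ⟨G, inferInstance, inferInstance, id, Set.injOn_id _, fun _ _ _ _ _ => rfl⟩

/-- **Result.** (1) Every finitely presented simple group in the class `Built` (generated by LEF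
groups and commutative groups under extensions, directed unions and isomorphism) is finite.
(2) The class contains every finite group. -/
theorem result :
    (∀ (G : Type) (inst : Group G), Built G inst →
      Group.IsFinitelyPresented G → IsSimpleGroup G → Finite G) ∧
    (∀ (G : Type) (inst : Group G), Finite G → Built G inst) :=
  ⟨main, fun G _ _ => Built.lef G (finite_isLEF G)⟩

end Vale.Agent.Results.P196.A_BuiltFromLEF
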